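import Vale.Agent.P315.H140.Best
import Vale.Agent.P315.H808.AlgAlong

/-!
P315, row M2-WIN (B): the optimal mesh route, generic over `C/Alg.lean` (any `P : Par`, any leaf
cost `f`). An optimal route is optimal between any two of its row boundaries, so that the sum of
the row prices `D` over a slab is exactly the price of the slab.

* `Opt`, `exists_opt`, `exists_opt_cone` (all positions in prescribed intervals).
* `Opt.lower` : the certified value of a slab is at least the sum of the `D`, for any read set.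
* `Opt.cell`, `Opt.free`, `Opt.vis` : one row, cell read / not read.
* `Opt.dist_le`, `Opt.dist_start_le` : the range of the positions in a slab.
* `Opt.chain` : the `Chain` of `H808/AlgAlong.lean`.
-/

set_option autoImplicit false

namespace Vale.Agent.P315.H503

open C H140 Finset

/-- An optimal mesh route `r` for the row costs `f`, through the rows `0, …, m - 1`, from `u` to
`v`; `pos i` = position at the row boundary `i`, `D i` = price of the row `i`. -/
structure Opt (P : Par) (f : Leaf) (m u v : ℕ) (pos : ℕ → ℕ) (r : ℕ → ℕ × ℕ) (D : ℕ → ℕ) :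
    Prop where
  zero : pos 0 = u
  last : pos m = v
  ed : ∀ i < m, Ed P (r i).1 (r i).2
  row : ∀ i < m, D i = P.sh * Nat.dist (pos i) (r i).1 + f i (r i).1 (r i).2 +
    P.sh * Nat.dist (r i).2 (pos (i + 1))
  slab : ∀ i0 i1, i0 ≤ i1 → i1 ≤ m →
    best P f i0 (i1 - i0) (pos i0) (pos i1) = ∑ i ∈ Ico i0 i1, D i

section

variable {P : Par} {f : Leaf} {m u v : ℕ}

/-- Position at the row boundaries. -/
def posOf (m u v : ℕ) (r : ℕ → ℕ × ℕ) (i : ℕ) : ℕ := if i < m then prevPos u r i else v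

/-- Price of the rows. -/
def DOf (P : Par) (f : Leaf) (m u v : ℕ) (r : ℕ → ℕ × ℕ) (i : ℕ) : ℕ :=
  P.sh * Nat.dist (posOf m u v r i) (r i).1 + f i (r i).1 (r i).2 +
    P.sh * Nat.dist (r i).2 (posOf m u v r (i + 1))

theorem sum_DOf (hm : 0 < m) (r : ℕ → ℕ × ℕ) :
    ∑ i ∈ range m, DOf P f m u v r i = C.rcost P.sh m f u v r := by
  obtain ⟨k, rfl⟩ : ∃ k, m = k + 1 := ⟨m - 1, by omega⟩
  unfold C.rcost
  rw [sum_range_succ, sum_range_succ]
  have h1 : ∑ i ∈ range k, DOf P f (k + 1) u v r i =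
      ∑ i ∈ range k, (P.sh * Nat.dist (prevPos u r i) (r i).1 + f i (r i).1 (r i).2) := by
    refine sum_congr rfl fun i hi => ?_
    have hi := mem_range.1 hi
    unfold DOf posOf
    rw [if_pos (by omega), if_pos (by omega)]
    show _ + P.sh * Nat.dist (r i).2 (r i).2 = _
    rw [Nat.dist_self, mul_zero, add_zero]
  have h2 : DOf P f (k + 1) u v r k =
      P.sh * Nat.dist (prevPos u r k) (r k).1 + f k (r k).1 (r k).2 +
        P.sh * Nat.dist (r k).2 v := by
    unfold DOf posOf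
    rw [if_pos (by omega), if_neg (by omega)]
  rw [h1, h2]
  show _ = _ + _ + P.sh * Nat.dist (r k).2 v
  ring

theorem best_le_DOf (hE : ∃ p q, Ed P p q) {r : ℕ → ℕ × ℕ} (hr : ∀ i < m, Ed P (r i).1 (r i).2)
    {i0 i1 : ℕ} (h01 : i0 ≤ i1) (h1m : i1 ≤ m) :
    best P f i0 (i1 - i0) (posOf m u v r i0) (posOf m u v r i1) ≤
      ∑ i ∈ Ico i0 i1, DOf P f m u v r i := by
  have h := best_le_sum (P := P) (f := f) hE i0 (i1 - i0) (posOf m u v r) (DOf P f m u v r)
    (fun i hi => ⟨(r (i0 + i)).1, (r (i0 + i)).2, hr _ (by omega), le_rfl⟩)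
  rw [Nat.add_sub_cancel' h01] at h
  rw [sum_Ico_eq_sum_range]
  exact h

/-- A route of optimal price is optimal on every slab. -/
theorem opt_of (hm : 0 < m) (hE : ∃ p q, Ed P p q) {r : ℕ → ℕ × ℕ}
    (hr : ∀ i < m, Ed P (r i).1 (r i).2) (ho : C.rcost P.sh m f u v r ≤ best P f 0 m u v) :
    Opt P f m u v (posOf m u v r) r (DOf P f m u v r) where
  zero := by unfold posOf; rw [if_pos hm]; rfl
  last := by unfold posOf; rw [if_neg (by omega)]
  ed := hr
  row := fun _ _ => rfl
  slab := fun i0 i1 h01 h1m => by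
    refine le_antisymm (best_le_DOf hE hr h01 h1m) ?_
    have ha := best_le_DOf (f := f) (u := u) (v := v) hE hr (Nat.zero_le i0) (h01.trans h1m)
    have hb := best_le_DOf (f := f) (u := u) (v := v) hE hr h1m le_rfl
    have c1 := best_add (P := P) (f := f) hE 0 i0 (m - i0) (posOf m u v r 0)
      (posOf m u v r i0) (posOf m u v r m)
    have c2 := best_add (P := P) (f := f) hE i0 (i1 - i0) (m - i1) (posOf m u v r i0)
      (posOf m u v r i1) (posOf m u v r m)
    have e0 : posOf m u v r 0 = u := by unfold posOf; rw [if_pos hm]; rfl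
    have em : posOf m u v r m = v := by unfold posOf; rw [if_neg (by omega)]
    have e1 : i0 + (m - i0) = m := by omega
    have e2 : i1 - i0 + (m - i1) = m - i0 := by omega
    have e3 : i0 + (i1 - i0) = i1 := by omega
    rw [e1, e0, em, Nat.zero_add] at c1
    rw [e2, em, e3] at c2
    rw [Nat.sub_zero, e0] at ha
    rw [em] at hb
    have hs := sum_DOf (P := P) (f := f) (u := u) (v := v) hm r
    have s1 : ∑ i ∈ Ico 0 i0, DOf P f m u v r i + ∑ i ∈ Ico i0 i1, DOf P f m u v r i +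
        ∑ i ∈ Ico i1 m, DOf P f m u v r i = ∑ i ∈ range m, DOf P f m u v r i := by
      rw [sum_Ico_consecutive _ (Nat.zero_le _) h01, sum_Ico_consecutive _ (Nat.zero_le _) h1m,
        range_eq_Ico]
    omega

/-- **Optimal mesh routes exist.** -/
theorem exists_opt (P : Par) (f : Leaf) {m : ℕ} (u v : ℕ) (hm : 0 < m)
    (hE : ∃ p q, Ed P p q) : ∃ pos r D, Opt P f m u v pos r D := by
  obtain ⟨r, hr, he⟩ := best_route (P := P) (f := f) hE 0 m u v
  simp only [Nat.zero_add] at he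
  exact ⟨_, r, _, opt_of hm hE hr he.le⟩

/-! ### Routes with positions in prescribed sets -/

/-- Moving every position of a route by 1-Lipschitz maps which respect the edges and the costs. -/
theorem rcost_clamp (sh : ℕ) (cl : ℕ → ℕ → ℕ) (hl : ∀ i p q, Nat.dist (cl i p) (cl i q) ≤
    Nat.dist p q) {m : ℕ} (hc : ∀ i < m, ∀ p q, Ed P p q → f i (cl i p) (cl (i + 1) q) ≤ f i p q)
    {u v : ℕ} (hu : cl 0 u = u) (hv : cl m v = v) {r : ℕ → ℕ × ℕ}
    (hr : ∀ i < m, Ed P (r i).1 (r i).2) :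
    C.rcost sh m f u v (fun i => (cl i (r i).1, cl (i + 1) (r i).2)) ≤ C.rcost sh m f u v r := by
  have hp : ∀ i, prevPos u (fun i => (cl i (r i).1, cl (i + 1) (r i).2)) i =
      cl i (prevPos u r i) := by
    intro i
    cases i with
    | zero => exact hu.symm
    | succ i => rfl
  unfold C.rcost
  refine Nat.add_le_add (sum_le_sum fun i hi => ?_) ?_
  · have hi := mem_range.1 hi
    rw [hp i]
    exact Nat.add_le_add (Nat.mul_le_mul_left _ (hl _ _ _)) (hc i hi _ _ (hr i hi))
  · rw [hp m]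
    have := hl m (prevPos u r m) v
    rw [hv] at this
    exact Nat.mul_le_mul_left _ this

/-- **Optimal mesh routes in a cone.** `cl i` moves every position at the row boundary `i` into
the set `In i`. -/
theorem exists_opt_cone (P : Par) (f : Leaf) {m u v : ℕ} (hm : 0 < m) (hE : ∃ p q, Ed P p q)
    (In : ℕ → ℕ → Prop) (cl : ℕ → ℕ → ℕ) (hin : ∀ i p, In i (cl i p))
    (hl : ∀ i p q, Nat.dist (cl i p) (cl i q) ≤ Nat.dist p q)
    (hed : ∀ i < m, ∀ p q, Ed P p q → Ed P (cl i p) (cl (i + 1) q))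
    (hc : ∀ i < m, ∀ p q, Ed P p q → f i (cl i p) (cl (i + 1) q) ≤ f i p q)
    (hu : cl 0 u = u) (hv : cl m v = v) :
    ∃ pos r D, Opt P f m u v pos r D ∧ (∀ i < m, In i (r i).1 ∧ In (i + 1) (r i).2) ∧
      ∀ i ≤ m, In i (pos i) := by
  obtain ⟨r, hr, he⟩ := best_route (P := P) (f := f) hE 0 m u v
  simp only [Nat.zero_add] at he
  have h1 := rcost_clamp (P := P) (f := f) P.sh cl hl hc hu hv hr
  refine ⟨_, fun i => (cl i (r i).1, cl (i + 1) (r i).2), _,
    opt_of hm hE (fun i hi => hed i hi _ _ (hr i hi)) (h1.trans he.le),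
    fun i _ => ⟨hin _ _, hin _ _⟩, fun i hi => ?_⟩
  unfold posOf
  split_ifs with h2
  · cases i with
    | zero => rw [← hu]; exact hin 0 _
    | succ i => exact hin _ _
  · obtain rfl : i = m := by omega
    rw [← hv]
    exact hin _ _

/-- The projection to an interval. -/
def clampI (a b p : ℕ) : ℕ := max a (min p b)

theorem clampI_lip (a b p q : ℕ) : Nat.dist (clampI a b p) (clampI a b q) ≤ Nat.dist p q := by
  unfold clampI Nat.dist
  omega

theorem clampI_mem {a b : ℕ} (h : a ≤ b) (p : ℕ) : a ≤ clampI a b p ∧ clampI a b p ≤ b := by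
  unfold clampI
  omega

theorem clampI_of_mem {a b p : ℕ} (h1 : a ≤ p) (h2 : p ≤ b) : clampI a b p = p := by
  unfold clampI
  omega

/-- The cone version with intervals `[lo i, hi i]`. -/
theorem exists_opt_interval (P : Par) (f : Leaf) {m u v : ℕ} (hm : 0 < m)
    (hE : ∃ p q, Ed P p q) (lo hi : ℕ → ℕ) (hlh : ∀ i, lo i ≤ hi i)
    (hed : ∀ i < m, ∀ p q, Ed P p q →
      Ed P (clampI (lo i) (hi i) p) (clampI (lo (i + 1)) (hi (i + 1)) q))
    (hc : ∀ i < m, ∀ p q, Ed P p q →
      f i (clampI (lo i) (hi i) p) (clampI (lo (i + 1)) (hi (i + 1)) q) ≤ f i p q)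
    (hu : lo 0 ≤ u ∧ u ≤ hi 0) (hv : lo m ≤ v ∧ v ≤ hi m) :
    ∃ pos r D, Opt P f m u v pos r D ∧
      (∀ i < m, (lo i ≤ (r i).1 ∧ (r i).1 ≤ hi i) ∧
        (lo (i + 1) ≤ (r i).2 ∧ (r i).2 ≤ hi (i + 1))) ∧
      ∀ i ≤ m, lo i ≤ pos i ∧ pos i ≤ hi i :=
  exists_opt_cone P f hm hE (fun i p => lo i ≤ p ∧ p ≤ hi i) (fun i p => clampI (lo i) (hi i) p)
    (fun i p => clampI_mem (hlh i) p) (fun _ p q => clampI_lip _ _ p q) hed hc
    (clampI_of_mem hu.1 hu.2) (clampI_of_mem hv.1 hv.2)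

end

namespace Opt

variable {P : Par} {f vis hid : Leaf} {m u v : ℕ} {pos : ℕ → ℕ} {r : ℕ → ℕ × ℕ} {D : ℕ → ℕ}

theorem edges (h : Opt P f m u v pos r D) (hm : 0 < m) : ∃ p q, Ed P p q :=
  ⟨_, _, h.ed 0 hm⟩

/-- The price of the whole route. -/
theorem total (h : Opt P f m u v pos r D) : ∑ i ∈ range m, D i = best P f 0 m u v := by
  have := h.slab 0 m (Nat.zero_le _) le_rfl
  rw [Nat.sub_zero, h.zero, h.last] at this
  rw [this, range_eq_Ico]

/-- The price of the slab `i` of level `j`. -/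
theorem slab_level (h : Opt P f m u v pos r D) {j i : ℕ} (hi : (i + 1) * P.M ^ j ≤ m) :
    best P f (i * P.M ^ j) (P.M ^ j) (pos (i * P.M ^ j)) (pos ((i + 1) * P.M ^ j)) =
      ∑ k ∈ range (P.M ^ j), D (i * P.M ^ j + k) := by
  have e : (i + 1) * P.M ^ j = i * P.M ^ j + P.M ^ j := by ring
  have := h.slab (i * P.M ^ j) ((i + 1) * P.M ^ j) (by omega) hi
  have e2 : (i + 1) * P.M ^ j - i * P.M ^ j = P.M ^ j := by omega
  rw [e2] at this
  rw [this, sum_Ico_eq_sum_range, e2]

/-- **Lower bound for the certified values**, for any read set. -/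
theorem lower (h : Opt P hid m u v pos r D) (hm : 0 < m)
    (hle : ∀ i p q, Ed P p q → hid i p q ≤ vis i p q) (R : Finset (ℕ × ℕ)) {j i : ℕ}
    (hi : (i + 1) * P.M ^ j ≤ m) :
    ∑ k ∈ range (P.M ^ j), D (i * P.M ^ j + k) ≤
      cval P vis hid R j i (pos (i * P.M ^ j)) (pos ((i + 1) * P.M ^ j)) := by
  rw [← h.slab_level hi]
  unfold cval
  refine best_mono (h.edges hm) _ _ _ _ fun k _ p q hpq => ?_
  unfold known
  split_ifs
  · exact le_rfl
  · exact hle _ _ _ hpq

/-- One row, for any row costs `g`. -/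
theorem row_le (h : Opt P f m u v pos r D) (g : Leaf) {i : ℕ} (hi : i < m) :
    best P g i 1 (pos i) (pos (i + 1)) ≤ P.sh * Nat.dist (pos i) (r i).1 +
      g i (r i).1 (r i).2 + P.sh * Nat.dist (r i).2 (pos (i + 1)) := by
  have := best_le_sum (P := P) (f := g) (h.edges (by omega)) i 1 pos
    (fun _ => P.sh * Nat.dist (pos i) (r i).1 +
      g i (r i).1 (r i).2 + P.sh * Nat.dist (r i).2 (pos (i + 1)))
    (fun k hk => by
      obtain rfl : k = 0 := by omega
      exact ⟨_, _, h.ed i hi, le_rfl⟩)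
  simpa using this

/-- **One row, cell read.** -/
theorem cell (h : Opt P hid m u v pos r D) {i a : ℕ} (hi : i < m) (R : Finset (ℕ × ℕ))
    (hR : (i, a) ∈ R) (hcov : P.cov a (r i).1) :
    best P (known P vis hid R) i 1 (pos i) (pos (i + 1)) ≤ D i := by
  refine (h.row_le _ hi).trans ?_
  rw [h.row i hi]
  unfold known
  rw [if_pos ⟨a, hR, hcov⟩]

/-- **One row, visible costs.** -/
theorem vis_le (h : Opt P hid m u v pos r D) {i : ℕ} (hi : i < m) {w : ℕ}
    (hw : vis i (r i).1 (r i).2 ≤ hid i (r i).1 (r i).2 + w) :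
    best P vis i 1 (pos i) (pos (i + 1)) ≤ D i + w := by
  refine (h.row_le _ hi).trans ?_
  rw [h.row i hi]
  omega

/-- **One row, any read set.** -/
theorem free (h : Opt P hid m u v pos r D) {i : ℕ} (hi : i < m) {w : ℕ}
    (hw : vis i (r i).1 (r i).2 ≤ hid i (r i).1 (r i).2 + w) (R : Finset (ℕ × ℕ)) :
    best P (known P vis hid R) i 1 (pos i) (pos (i + 1)) ≤ D i + w := by
  refine (h.row_le _ hi).trans ?_
  rw [h.row i hi]
  have : known P vis hid R i (r i).1 (r i).2 ≤ hid i (r i).1 (r i).2 + w := by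
    unfold known
    split_ifs
    · omega
    · exact hw
  omega

/-! ### The range of the positions -/

theorem leaf_le (h : Opt P f m u v pos r D) {i : ℕ} (hi : i < m) :
    f i (r i).1 (r i).2 ≤ D i := by
  rw [h.row i hi]; omega

theorem step_le (h : Opt P f m u v pos r D)
    (hf : ∀ i < m, P.sh * Nat.dist (r i).1 (r i).2 ≤ f i (r i).1 (r i).2) {i : ℕ} (hi : i < m) :
    P.sh * Nat.dist (pos i) (pos (i + 1)) ≤ D i := by
  rw [h.row i hi]
  have h1 := hf i hi
  have h2 : Nat.dist (pos i) (pos (i + 1)) ≤ Nat.dist (pos i) (r i).1 +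
      Nat.dist (r i).1 (r i).2 + Nat.dist (r i).2 (pos (i + 1)) := by
    unfold Nat.dist; omega
  have h3 := Nat.mul_le_mul_left P.sh h2
  rw [Nat.mul_add, Nat.mul_add] at h3
  omega

theorem start_le (h : Opt P f m u v pos r D)
    {i : ℕ} (hi : i < m) : P.sh * Nat.dist (pos i) (r i).1 ≤ D i := by
  rw [h.row i hi]; omega

/-- **Range**: `sh` times the distance of two positions is at most the price between them. -/
theorem dist_le (h : Opt P f m u v pos r D)
    (hf : ∀ i < m, P.sh * Nat.dist (r i).1 (r i).2 ≤ f i (r i).1 (r i).2) {i0 i1 : ℕ}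
    (h01 : i0 ≤ i1) (h1m : i1 ≤ m) :
    P.sh * Nat.dist (pos i0) (pos i1) ≤ ∑ i ∈ Ico i0 i1, D i := by
  induction i1, h01 using Nat.le_induction with
  | base => simp [Nat.dist_self]
  | succ k hk ih =>
    rw [sum_Ico_succ_top hk]
    have h1 := ih (by omega)
    have h2 := h.step_le hf (i := k) (by omega)
    have h3 : Nat.dist (pos i0) (pos (k + 1)) ≤ Nat.dist (pos i0) (pos k) +
        Nat.dist (pos k) (pos (k + 1)) := by
      unfold Nat.dist; omega
    have h4 := Nat.mul_le_mul_left P.sh h3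
    rw [Nat.mul_add] at h4
    omega

/-- Two row boundaries `a, b` in the slab `[i0, i1]`, in any order. -/
theorem dist_le_slab (h : Opt P f m u v pos r D)
    (hf : ∀ i < m, P.sh * Nat.dist (r i).1 (r i).2 ≤ f i (r i).1 (r i).2) {i0 i1 a b : ℕ}
    (h1m : i1 ≤ m) (ha0 : i0 ≤ a) (ha1 : a ≤ i1) (hb0 : i0 ≤ b) (hb1 : b ≤ i1) :
    P.sh * Nat.dist (pos a) (pos b) ≤ ∑ i ∈ Ico i0 i1, D i := by
  rcases le_total a b with hab | hab
  · refine (h.dist_le hf hab (by omega)).trans (sum_le_sum_of_subset ?_)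
    exact Ico_subset_Ico ha0 hb1
  · rw [Nat.dist_comm]
    refine (h.dist_le hf hab (by omega)).trans (sum_le_sum_of_subset ?_)
    exact Ico_subset_Ico hb0 ha1

/-- The start of a row of the slab and a row boundary of the slab. -/
theorem dist_start_le (h : Opt P f m u v pos r D)
    (hf : ∀ i < m, P.sh * Nat.dist (r i).1 (r i).2 ≤ f i (r i).1 (r i).2) {i0 i1 a b : ℕ}
    (h1m : i1 ≤ m) (ha0 : i0 ≤ a) (ha1 : a < i1) (hb0 : i0 ≤ b) (hb1 : b ≤ i1) :
    P.sh * Nat.dist (r a).1 (pos b) ≤ ∑ i ∈ Ico i0 i1, D i := by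
  rcases le_or_gt b a with hab | hab
  · have h1 := h.dist_le hf hab (by omega)
    have h2 := h.start_le (i := a) (by omega)
    have h3 : Nat.dist (r a).1 (pos b) ≤ Nat.dist (pos b) (pos a) + Nat.dist (pos a) (r a).1 := by
      unfold Nat.dist; omega
    have h4 := Nat.mul_le_mul_left P.sh h3
    rw [Nat.mul_add] at h4
    have h5 : ∑ i ∈ Ico b (a + 1), D i ≤ ∑ i ∈ Ico i0 i1, D i :=
      sum_le_sum_of_subset (Ico_subset_Ico hb0 ha1)
    rw [sum_Ico_succ_top hab] at h5
    omega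
  · have h1 := h.dist_le hf (i0 := a + 1) (i1 := b) (by omega) (by omega)
    have h2 := h.row a (by omega)
    have h3 : Nat.dist (r a).1 (pos b) ≤ Nat.dist (r a).1 (r a).2 +
        Nat.dist (r a).2 (pos (a + 1)) + Nat.dist (pos (a + 1)) (pos b) := by
      unfold Nat.dist; omega
    have h4 := Nat.mul_le_mul_left P.sh h3
    rw [Nat.mul_add, Nat.mul_add] at h4
    have h5 : ∑ i ∈ Ico a b, D i ≤ ∑ i ∈ Ico i0 i1, D i :=
      sum_le_sum_of_subset (Ico_subset_Ico ha0 hb1)
    rw [sum_eq_sum_Ico_succ_bot hab] at h5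
    have h6 := hf a (by omega)
    omega

/-! ### The chain of `H808/AlgAlong.lean` -/

/-- The chain of an optimal mesh route with labels `lab` and weights `w`. -/
noncomputable def chain {n : ℕ} (h : Opt P hid (P.M ^ n) u v pos r D) (lab : ℕ → ℕ → ℕ)
    (w : ℕ → ℕ) (w_pos : ∀ i, 0 < w i)
    (kid : ∀ j i k, j < n → i < P.M ^ (n - (j + 1)) → k < P.M →
      lab j (i * P.M + k) ∈ P.kids (j + 1) (lab (j + 1) i))
    (cov : ∀ i < P.M ^ n, P.cov (lab 0 i) (r i).1)
    (hw : ∀ i < P.M ^ n, vis i (r i).1 (r i).2 ≤ hid i (r i).1 (r i).2 + w i) :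
    H808.Chain P vis hid n where
  pos := pos
  lab := lab
  d := fun i => D i
  w := fun i => w i
  w_pos := fun i => Nat.cast_pos.2 (w_pos i)
  kid := kid
  cell := fun i hi R hR => by
    have := h.cell (vis := vis) hi R hR (cov i hi)
    exact_mod_cast this
  free := fun i hi R => by
    have := h.free (vis := vis) hi (hw i hi) R
    exact_mod_cast this

end Opt

end Vale.Agent.P315.H503
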